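import Vale.Agent.Lib.P329.Groups

/-! Every language recognized by the alternating group of degree four, and more generally by a
finite group that embeds in a product of copies of this group and an abelian group, has
generalized star height at most one. -/

namespace Vale.Agent.Results.P329.AlternatingFour

open Vale.Agent.P329

theorem result :
    (∀ (A : Type) [Finite A] (φ : A → alternatingGroup (Fin 4))
        (S : Set (alternatingGroup (Fin 4))),
      ∃ e : GRE A, e.sh ≤ 1 ∧ ∀ w : List A, w ∈ e.lang ↔ (w.map φ).prod ∈ S) ∧
    (∀ (A : Type) [Finite A] (G : Type) [Group G] (k : ℕ) (B : Type) [CommGroup B] [Finite B]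
        (f : G →* (Fin k → alternatingGroup (Fin 4)) × B), Function.Injective f →
        ∀ (φ : A → G) (S : Set G),
      ∃ e : GRE A, e.sh ≤ 1 ∧ ∀ w : List A, w ∈ e.lang ↔ (w.map φ).prod ∈ S) := by
  refine ⟨?_, ?_⟩
  · intro A _ φ S
    exact Ht_group (k := 1) (B := Unit)
      (MonoidHom.prod (Pi.monoidHom fun _ => MonoidHom.id _) 1)
      (fun x y h => congrFun (congrArg Prod.fst h) 0) φ S
  · intro A _ G _ k B _ _ f hf φ S
    exact Ht_group f hf φ S

end Vale.Agent.Results.P329.AlternatingFour
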