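import Vale.Agent.Lib.P329.NilProd

/-! Every language recognized by a finite nilpotent group of class at most three, and more
generally by a group that embeds in a product of such a group and copies of the alternating
group of degree four, has generalized star height at most one. -/

namespace Vale.Agent.Results.P329.NilpotentThree

open Vale.Agent.P329

theorem result :
    (∀ (A : Type) [Finite A] (N : Type) [Group N] [Finite N] [Group.IsNilpotent N],
        Group.nilpotencyClass N ≤ 3 → ∀ (φ : A → N) (S : Set N),
      ∃ e : GRE A, e.sh ≤ 1 ∧ ∀ w : List A, w ∈ e.lang ↔ (w.map φ).prod ∈ S) ∧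
    (∀ (A : Type) [Finite A] (G : Type) [Group G] (k : ℕ) (N : Type) [Group N] [Finite N]
        [Group.IsNilpotent N], Group.nilpotencyClass N ≤ 3 →
        ∀ f : G →* (Fin k → alternatingGroup (Fin 4)) × N, Function.Injective f →
        ∀ (φ : A → G) (S : Set G),
      ∃ e : GRE A, e.sh ≤ 1 ∧ ∀ w : List A, w ∈ e.lang ↔ (w.map φ).prod ∈ S) := by
  refine ⟨?_, ?_⟩
  · intro A _ N _ _ _ hN φ S
    exact Ht_group_nil (k := 0) hN (MonoidHom.prod 1 (MonoidHom.id N))
      (fun x y h => congrArg Prod.snd h) φ S
  · intro A _ G _ k N _ _ _ hN f hf φ S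
    exact Ht_group_nil hN f hf φ S

end Vale.Agent.Results.P329.NilpotentThree
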